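import Mathlib

namespace Vale.Agent.P125.H36

open scoped BigOperators

/-- `Alt σ k s x`: there is a chain `x = x_1 < x_2 < ... < x_k` on which `σ` takes the values
`s, -s, s, ...`. -/
inductive Alt {n : ℕ} (σ : Fin (n + 1) → ℤ) : ℕ → ℤ → Fin (n + 1) → Prop
  | one {x : Fin (n + 1)} {s : ℤ} (h : σ x = s) : Alt σ 1 s x
  | cons {k : ℕ} {x y : Fin (n + 1)} {s : ℤ} (hxy : x < y) (h : σ x = s)
      (t : Alt σ k (-s) y) : Alt σ (k + 1) s x

variable {n : ℕ}

theorem Alt.head {σ : Fin (n + 1) → ℤ} {k : ℕ} {s : ℤ} {x : Fin (n + 1)}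
    (h : Alt σ k s x) : σ x = s := by
  cases h with
  | one h => exact h
  | cons _ h _ => exact h

theorem Alt.bound {σ : Fin (n + 1) → ℤ} {k : ℕ} {s : ℤ} {x : Fin (n + 1)}
    (h : Alt σ k s x) : k + x.val ≤ n + 1 := by
  induction h with
  | one h => rename_i x s; have := x.isLt; omega
  | cons hxy h t ih =>
    have : _ < _ := Fin.lt_def.mp hxy
    omega

theorem Alt.pos {σ : Fin (n + 1) → ℤ} {k : ℕ} {s : ℤ} {x : Fin (n + 1)}
    (h : Alt σ k s x) : 1 ≤ k := by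
  cases h with
  | one h => exact le_rfl
  | cons _ h _ => omega

theorem Alt.map_same {σ σ' : Fin (n + 1) → ℤ} (hσ : ∀ x, σ x ≠ 0 → σ' x = σ x)
    {k : ℕ} {s : ℤ} {x : Fin (n + 1)} (h : Alt σ k s x) (hs : s ≠ 0) : Alt σ' k s x := by
  induction h with
  | one h => exact Alt.one (by rw [hσ _ (by rw [h]; exact hs), h])
  | cons hxy h t ih =>
    exact Alt.cons hxy (by rw [hσ _ (by rw [h]; exact hs), h]) (ih (neg_ne_zero.mpr hs))

theorem Alt.map_neg {σ σ' : Fin (n + 1) → ℤ} (hσ : ∀ x, σ x ≠ 0 → σ' x = -σ x)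
    {k : ℕ} {s : ℤ} {x : Fin (n + 1)} (h : Alt σ k s x) (hs : s ≠ 0) : Alt σ' k (-s) x := by
  induction h with
  | one h => exact Alt.one (by rw [hσ _ (by rw [h]; exact hs), h])
  | cons hxy h t ih =>
    exact Alt.cons hxy (by rw [hσ _ (by rw [h]; exact hs), h]) (ih (neg_ne_zero.mpr hs))

open Classical in
/-- the largest length of an alternating chain starting with the sign `s` -/
noncomputable def ell (σ : Fin (n + 1) → ℤ) (s : ℤ) : ℕ :=
  Nat.findGreatest (fun k => ∃ x, Alt σ k s x) (n + 1)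

theorem le_ell {σ : Fin (n + 1) → ℤ} {k : ℕ} {s : ℤ} {x : Fin (n + 1)}
    (h : Alt σ k s x) : k ≤ ell σ s := by
  classical
  unfold ell
  exact Nat.le_findGreatest (by have := h.bound; omega) ⟨x, h⟩

theorem ell_spec {σ : Fin (n + 1) → ℤ} {s : ℤ} (h : ell σ s ≠ 0) :
    ∃ x, Alt σ (ell σ s) s x := by
  classical
  exact Nat.findGreatest_of_ne_zero (P := fun k => ∃ x, Alt σ k s x) (n := n + 1) rfl h

theorem ell_le_same {σ σ' : Fin (n + 1) → ℤ} (hσ : ∀ x, σ x ≠ 0 → σ' x = σ x)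
    {s : ℤ} (hs : s ≠ 0) : ell σ s ≤ ell σ' s := by
  by_cases h : ell σ s = 0
  · omega
  · obtain ⟨x, hx⟩ := ell_spec h
    exact le_ell (hx.map_same hσ hs)

theorem ell_le_neg {σ σ' : Fin (n + 1) → ℤ} (hσ : ∀ x, σ x ≠ 0 → σ' x = -σ x)
    {s : ℤ} (hs : s ≠ 0) : ell σ s ≤ ell σ' (-s) := by
  by_cases h : ell σ s = 0
  · omega
  · obtain ⟨x, hx⟩ := ell_spec h
    exact le_ell (hx.map_neg hσ hs)

theorem ell_ne {σ : Fin (n + 1) → ℤ} (hne : ∃ x, σ x = 1 ∨ σ x = -1) :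
    ell σ 1 ≠ ell σ (-1) := by
  intro heq
  have hpos : ell σ 1 ≠ 0 := by
    obtain ⟨x, hx | hx⟩ := hne
    · have := le_ell (Alt.one hx); omega
    · have := le_ell (Alt.one hx); omega
  have hpos' : ell σ (-1) ≠ 0 := by omega
  obtain ⟨x, hx⟩ := ell_spec hpos
  obtain ⟨y, hy⟩ := ell_spec hpos'
  rcases lt_trichotomy x y with h | h | h
  · have := le_ell (Alt.cons h hx.head hy)
    omega
  · have h1 := hx.head
    have h2 := hy.head
    rw [h] at h1
    omega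
  · have hx' : Alt σ (ell σ 1) (-(-1)) x := by simpa using hx
    have := le_ell (Alt.cons h hy.head hx')
    omega

/-- number of alternations (length of the collapsed word) -/
noncomputable def pl (σ : Fin (n + 1) → ℤ) : ℕ := max (ell σ 1) (ell σ (-1))

/-- the first letter is `+` -/
def sgp (σ : Fin (n + 1) → ℤ) : Prop := ell σ (-1) < ell σ 1

theorem comb {σG σA σB : Fin (n + 1) → ℤ}
    (hA : ∀ x, σG x ≠ 0 → σA x = σG x) (hB : ∀ x, σG x ≠ 0 → σB x = -σG x)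
    (hAne : ∃ x, σA x = 1 ∨ σA x = -1) (hBne : ∃ x, σB x = 1 ∨ σB x = -1) :
    pl σG ≤ pl σA ∧ pl σG ≤ pl σB ∧ ((sgp σA ↔ sgp σB) → 2 * pl σG + 1 ≤ pl σA + pl σB) := by
  have h1 := ell_le_same hA (s := 1) (by norm_num)
  have h2 := ell_le_same hA (s := -1) (by norm_num)
  have h3 := ell_le_neg hB (s := 1) (by norm_num)
  have h4 := ell_le_neg hB (s := -1) (by norm_num)
  rw [neg_neg] at h4
  have h5 := ell_ne hAne
  have h6 := ell_ne hBne
  unfold pl sgp
  refine ⟨by omega, by omega, ?_⟩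
  intro h
  by_cases h7 : ell σA (-1) < ell σA 1
  · have h8 := h.mp h7
    omega
  · have h8 : ¬ ell σB (-1) < ell σB 1 := fun h9 => h7 (h.mpr h9)
    omega

end Vale.Agent.P125.H36
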