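import Mathlib

namespace Vale.Agent.P125.H36

open scoped BigOperators

variable {S : Type} [Fintype S]

/-- reversible stochastic kernel (total mass of `μ` is irrelevant) -/
structure IsCh (μ : S → ℝ) (Q : Matrix S S ℝ) : Prop where
  mu_nonneg : ∀ i, 0 ≤ μ i
  nonneg : ∀ i j, 0 ≤ Q i j
  row : ∀ i, ∑ j, Q i j = 1
  rev : ∀ i j, μ i * Q i j = μ j * Q j i

noncomputable def E1 (μ : S → ℝ) (Q : Matrix S S ℝ) (φ : S → S → ℝ) : ℝ :=
  ∑ z, ∑ y, μ z * Q z y * φ z y

noncomputable def E3 (μ : S → ℝ) (Q : Matrix S S ℝ) (ψ : S → S → S → ℝ) : ℝ :=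
  ∑ z, ∑ x, ∑ y, μ z * Q z x * Q z y * ψ z x y

variable {μ : S → ℝ} {Q : Matrix S S ℝ}

theorem E3_add (ψ ψ' : S → S → S → ℝ) :
    E3 μ Q (fun z x y => ψ z x y + ψ' z x y) = E3 μ Q ψ + E3 μ Q ψ' := by
  unfold E3
  simp only [mul_add, Finset.sum_add_distrib]

theorem E3_mul (c : ℝ) (ψ : S → S → S → ℝ) :
    E3 μ Q (fun z x y => c * ψ z x y) = c * E3 μ Q ψ := by
  unfold E3
  simp only [Finset.mul_sum]
  refine Finset.sum_congr rfl fun z _ => Finset.sum_congr rfl fun x _ =>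
    Finset.sum_congr rfl fun y _ => ?_
  ring

theorem E3_mono (h : IsCh μ Q) {ψ ψ' : S → S → S → ℝ} (hψ : ∀ z x y, ψ z x y ≤ ψ' z x y) :
    E3 μ Q ψ ≤ E3 μ Q ψ' := by
  unfold E3
  refine Finset.sum_le_sum fun z _ => Finset.sum_le_sum fun x _ =>
    Finset.sum_le_sum fun y _ => ?_
  exact mul_le_mul_of_nonneg_left (hψ z x y)
    (mul_nonneg (mul_nonneg (h.mu_nonneg z) (h.nonneg z x)) (h.nonneg z y))

theorem E1_nonneg (h : IsCh μ Q) {φ : S → S → ℝ} (hφ : ∀ z y, 0 ≤ φ z y) : 0 ≤ E1 μ Q φ := by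
  unfold E1
  refine Finset.sum_nonneg fun z _ => Finset.sum_nonneg fun y _ => ?_
  exact mul_nonneg (mul_nonneg (h.mu_nonneg z) (h.nonneg z y)) (hφ z y)

theorem E1_mono (h : IsCh μ Q) {φ φ' : S → S → ℝ} (hφ : ∀ z y, φ z y ≤ φ' z y) :
    E1 μ Q φ ≤ E1 μ Q φ' := by
  unfold E1
  refine Finset.sum_le_sum fun z _ => Finset.sum_le_sum fun y _ => ?_
  exact mul_le_mul_of_nonneg_left (hφ z y) (mul_nonneg (h.mu_nonneg z) (h.nonneg z y))

theorem E1_add (φ φ' : S → S → ℝ) :
    E1 μ Q (fun z y => φ z y + φ' z y) = E1 μ Q φ + E1 μ Q φ' := by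
  unfold E1
  simp only [mul_add, Finset.sum_add_distrib]

theorem E1_mul (c : ℝ) (φ : S → S → ℝ) :
    E1 μ Q (fun z y => c * φ z y) = c * E1 μ Q φ := by
  unfold E1
  simp only [Finset.mul_sum]
  refine Finset.sum_congr rfl fun z _ => Finset.sum_congr rfl fun y _ => ?_
  ring

theorem E3_right (h : IsCh μ Q) (φ : S → S → ℝ) :
    E3 μ Q (fun z _ y => φ z y) = E1 μ Q φ := by
  unfold E3 E1
  refine Finset.sum_congr rfl fun z _ => ?_
  calc ∑ x, ∑ y, μ z * Q z x * Q z y * φ z y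
      = ∑ x, Q z x * ∑ y, μ z * Q z y * φ z y := by
        refine Finset.sum_congr rfl fun x _ => ?_
        rw [Finset.mul_sum]
        refine Finset.sum_congr rfl fun y _ => ?_
        ring
    _ = (∑ x, Q z x) * ∑ y, μ z * Q z y * φ z y := by rw [Finset.sum_mul]
    _ = _ := by rw [h.row, one_mul]

theorem E3_left (h : IsCh μ Q) (φ : S → S → ℝ) :
    E3 μ Q (fun z x _ => φ z x) = E1 μ Q φ := by
  unfold E3 E1
  refine Finset.sum_congr rfl fun z _ => Finset.sum_congr rfl fun x _ => ?_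
  calc ∑ y, μ z * Q z x * Q z y * φ z x
      = ∑ y, Q z y * (μ z * Q z x * φ z x) := by
        refine Finset.sum_congr rfl fun y _ => ?_
        ring
    _ = (∑ y, Q z y) * (μ z * Q z x * φ z x) := by rw [Finset.sum_mul]
    _ = _ := by rw [h.row, one_mul]

theorem E3_mid (h : IsCh μ Q) (φ : S → S → ℝ) :
    E3 μ Q (fun _ x y => φ x y) = E1 μ (Q * Q) φ := by
  unfold E3 E1
  rw [Finset.sum_comm]
  refine Finset.sum_congr rfl fun x _ => ?_
  rw [Finset.sum_comm]
  refine Finset.sum_congr rfl fun y _ => ?_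
  rw [Matrix.mul_apply, Finset.mul_sum, Finset.sum_mul]
  refine Finset.sum_congr rfl fun z _ => ?_
  rw [← h.rev x z]
  ring

theorem IsCh.sq (h : IsCh μ Q) : IsCh μ (Q * Q) where
  mu_nonneg := h.mu_nonneg
  nonneg i j := by
    rw [Matrix.mul_apply]
    exact Finset.sum_nonneg fun k _ => mul_nonneg (h.nonneg i k) (h.nonneg k j)
  row i := by
    simp only [Matrix.mul_apply]
    rw [Finset.sum_comm]
    calc ∑ k, ∑ j, Q i k * Q k j = ∑ k, Q i k * ∑ j, Q k j := by
          refine Finset.sum_congr rfl fun k _ => ?_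
          rw [Finset.mul_sum]
      _ = ∑ k, Q i k := by
          refine Finset.sum_congr rfl fun k _ => ?_
          rw [h.row, mul_one]
      _ = 1 := h.row i
  rev i j := by
    rw [Matrix.mul_apply, Matrix.mul_apply, Finset.mul_sum, Finset.mul_sum]
    refine Finset.sum_congr rfl fun k _ => ?_
    calc μ i * (Q i k * Q k j) = (μ i * Q i k) * Q k j := by ring
      _ = (μ k * Q k i) * Q k j := by rw [h.rev i k]
      _ = (μ k * Q k j) * Q k i := by ring
      _ = (μ j * Q j k) * Q k i := by rw [h.rev k j]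
      _ = μ j * (Q j k * Q k i) := by ring

open Classical in
theorem iid_step (h : IsCh μ Q) (a : S → S → ℝ) (s : S → S → Prop) :
    E3 μ Q (fun z x y => a z y * a z x) / 2 ≤
      E3 μ Q (fun z x y => a z y * a z x * (if (s z y ↔ s z x) then 1 else 0)) := by
  unfold E3
  rw [Finset.sum_div]
  refine Finset.sum_le_sum fun z _ => ?_
  set u := ∑ x, Q z x * a z x * (if s z x then 1 else 0) with hu
  set v := ∑ x, Q z x * a z x * (if s z x then 0 else 1) with hv
  have h1 : ∑ x, ∑ y, μ z * Q z x * Q z y * (a z y * a z x * (if (s z y ↔ s z x) then 1 else 0))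
      = μ z * (u * u + v * v) := by
    rw [hu, hv, Finset.sum_mul_sum, Finset.sum_mul_sum, ← Finset.sum_add_distrib, Finset.mul_sum]
    refine Finset.sum_congr rfl fun x _ => ?_
    rw [← Finset.sum_add_distrib, Finset.mul_sum]
    refine Finset.sum_congr rfl fun y _ => ?_
    by_cases hx : s z x <;> by_cases hy : s z y <;> simp [hx, hy] <;> ring
  have h2 : ∑ x, ∑ y, μ z * Q z x * Q z y * (a z y * a z x) = μ z * ((u + v) * (u + v)) := by
    have huv : u + v = ∑ x, Q z x * a z x := by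
      rw [hu, hv, ← Finset.sum_add_distrib]
      refine Finset.sum_congr rfl fun x _ => ?_
      by_cases hx : s z x <;> simp [hx]
    rw [huv, Finset.sum_mul_sum, Finset.mul_sum]
    refine Finset.sum_congr rfl fun x _ => ?_
    rw [Finset.mul_sum]
    refine Finset.sum_congr rfl fun y _ => ?_
    ring
  rw [h1, h2]
  have := h.mu_nonneg z
  nlinarith [mul_nonneg this (sq_nonneg (u - v))]

end Vale.Agent.P125.H36
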