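import Vale.Agent.P125.H36.PW
import Vale.Agent.P125.H36.Sums

namespace Vale.Agent.P125.H36

open scoped BigOperators

variable {S : Type} [Fintype S] {n : ℕ}

/-- profile of the increment from `z` to `y` -/
noncomputable def Dm (f : S → Fin n → ℝ) (z y : S) : Fin (n + 1) → ℝ :=
  fun t => ps (f y) t - ps (f z) t

noncomputable def Nn (f : S → Fin n → ℝ) (z y : S) : ℝ := nrm (Dm f z y)

noncomputable def Vv (f : S → Fin n → ℝ) (z y : S) : ℝ := ∑ i, |f y i - f z i|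

noncomputable def pp (f : S → Fin n → ℝ) (g : ℝ) (z y : S) : ℕ :=
  pl (pat ((1 - g) * Nn f z y) (Dm f z y))

def ss (f : S → Fin n → ℝ) (g : ℝ) (z y : S) : Prop :=
  sgp (pat ((1 - g) * Nn f z y) (Dm f z y))

theorem Nn_nonneg (f : S → Fin n → ℝ) (z y : S) : 0 ≤ Nn f z y := nrm_nonneg _

theorem Vv_nonneg (f : S → Fin n → ℝ) (z y : S) : 0 ≤ Vv f z y :=
  Finset.sum_nonneg fun _ _ => abs_nonneg _

theorem Dm_sub (f : S → Fin n → ℝ) (z x y : S) :
    (fun t => Dm f z y t - Dm f z x t) = Dm f x y := by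
  funext t
  unfold Dm
  ring

theorem Nn_tri (f : S → Fin n → ℝ) (z x y : S) : Nn f x y ≤ Nn f z y + Nn f z x := by
  have := nrm_sub_le (Dm f z y) (Dm f z x)
  rw [Dm_sub] at this
  exact this

theorem Vv_tri (f : S → Fin n → ℝ) (z x y : S) : Vv f x y ≤ Vv f z y + Vv f z x := by
  unfold Vv
  rw [← Finset.sum_add_distrib]
  refine Finset.sum_le_sum fun i _ => ?_
  have : f y i - f x i = (f y i - f z i) - (f x i - f z i) := by ring
  rw [this]
  exact abs_sub _ _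

theorem ps_sub (f : S → Fin n → ℝ) (z y : S) :
    ps (fun i => f y i - f z i) = Dm f z y := by
  funext t
  unfold Dm ps
  rw [← Finset.sum_sub_distrib]
  refine Finset.sum_congr rfl fun i _ => ?_
  split_ifs <;> ring

theorem Nn_le_Vv (f : S → Fin n → ℝ) (z y : S) : Nn f z y ≤ Vv f z y := by
  obtain ⟨t, ht⟩ := exists_nrm (Dm f z y)
  unfold Nn
  rw [← ht, ← ps_sub]
  unfold ps Vv
  refine le_trans (Finset.abs_sum_le_sum_abs _ _) (Finset.sum_le_sum fun i _ => ?_)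
  split_ifs
  · exact le_rfl
  · simp

theorem pp_var (f : S → Fin n → ℝ) {g : ℝ} (hg : g ≤ 1 / 2) (z y : S) :
    ((pp f g z y : ℝ) - 1) * Nn f z y ≤ Vv f z y := by
  have hN := Nn_nonneg f z y
  have hθ : 0 ≤ (1 - g) * Nn f z y := mul_nonneg (by linarith) hN
  have h := pl_var (fun i => f y i - f z i) hθ
  rw [ps_sub] at h
  have hV := Vv_nonneg f z y
  unfold pp Vv at *
  set q : ℝ := (pl (pat ((1 - g) * Nn f z y) (Dm f z y)) : ℝ) with hq
  by_cases hq1 : 0 ≤ q - 1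
  · have h2 : Nn f z y ≤ 2 * ((1 - g) * Nn f z y) := by nlinarith
    have := mul_le_mul_of_nonneg_left h2 hq1
    linarith
  · push Not at hq1
    nlinarith

open Classical in
theorem pw_inst (f : S → Fin n → ℝ) {g : ℝ} (hg : 0 < g) (hg8 : g ≤ 1 / 8) {P : ℕ} (hP : 1 ≤ P)
    (z x y : S) :
    (Nn f x y) ^ 2 * ((min (pp f g x y) P : ℕ) : ℝ)
      + Nn f z y * Nn f z x * (if (ss f (4 * g) z y ↔ ss f (4 * g) z x) then 1 else 0) ≤
      2 * (Nn f z y) ^ 2 * ((min (pp f (4 * g) z y) P : ℕ) : ℝ)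
        + 2 * (Nn f z x) ^ 2 * ((min (pp f (4 * g) z x) P : ℕ) : ℝ)
        + ((Nn f x y) ^ 2 + Nn f x y * Vv f x y) / (4 * P)
        + 18 * P * (Nn f z y - Nn f z x) ^ 2
        + 6 * P * (((Nn f z y + Nn f z x) ^ 2 - (Nn f x y) ^ 2) / g) := by
  refine pw (Nn_nonneg f z y) (Nn_nonneg f z x) (Nn_nonneg f x y) (Vv_nonneg f x y) hg hg8 hP
    (Nn_tri f z x y) ?_ (pp_var f (by linarith) x y)
  intro ha hb hgd
  have hgd' : GD g (nrm (Dm f z y)) (nrm (Dm f z x))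
      (nrm (fun t => Dm f z y t - Dm f z x t)) := by
    rw [Dm_sub]; exact hgd
  have hi := incl (Dm f z y) (Dm f z x) hg.le (by linarith) ha hb hgd'
  rw [Dm_sub] at hi
  have hA : ∃ t, pat ((1 - 4 * g) * nrm (Dm f z y)) (Dm f z y) t = 1 ∨
      pat ((1 - 4 * g) * nrm (Dm f z y)) (Dm f z y) t = -1 :=
    pat_ne _ (by have := nrm_nonneg (Dm f z y); nlinarith)
  have hB : ∃ t, pat ((1 - 4 * g) * nrm (Dm f z x)) (Dm f z x) t = 1 ∨
      pat ((1 - 4 * g) * nrm (Dm f z x)) (Dm f z x) t = -1 :=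
    pat_ne _ (by have := nrm_nonneg (Dm f z x); nlinarith)
  exact comb (fun t ht => (hi t ht).1) (fun t ht => (hi t ht).2) hA hB

end Vale.Agent.P125.H36
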