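import Vale.Agent.P125.H36.KL

namespace Vale.Agent.P125.H36

open scoped BigOperators

theorem sum_Iic_eq_ps {n : ℕ} (v : Fin n → ℝ) (k : Fin n) :
    ∑ l ∈ Finset.Iic k, v l = ps v k.succ := by
  unfold ps
  have e : Finset.Iic k = Finset.univ.filter (fun l : Fin n => l.val < k.succ.val) := by
    apply Finset.ext
    intro l
    rw [Finset.mem_Iic, Finset.mem_filter]
    simp only [Finset.mem_univ, true_and, Fin.val_succ]
    rw [Fin.le_def]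
    omega
  rw [e, Finset.sum_filter]

theorem iSup_le_Nn {S : Type} [Fintype S] {n : ℕ} (f : S → Fin n → ℝ) (i j : S) :
    (⨆ k : Fin n, |∑ l ∈ Finset.Iic k, (f j l - f i l)|) ≤ Nn f i j := by
  refine Real.iSup_le (fun k => ?_) (nrm_nonneg _)
  rw [sum_Iic_eq_ps (fun l => f j l - f i l) k, ps_sub]
  exact abs_le_nrm _ _

/-- (alpha): the summing operators `l_1^n → l_∞^n` are uniformly sub-ballistic along stationary
reversible Markov chains. -/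
theorem alpha_final : ∀ ε : ℝ, 0 < ε → ∃ t : ℕ, 1 ≤ t ∧
    ∀ (n : ℕ) (S : Type) [Fintype S] [DecidableEq S] (μ : S → ℝ) (P : Matrix S S ℝ),
      (∀ i, 0 ≤ μ i) → ∑ i, μ i = 1 → (∀ i j, 0 ≤ P i j) → (∀ i, ∑ j, P i j = 1) →
      (∀ i j, μ i * P i j = μ j * P j i) → ∀ f : S → Fin n → ℝ,
        ∑ i, ∑ j, μ i * (P ^ t) i j * (⨆ k : Fin n, |∑ l ∈ Finset.Iic k, (f j l - f i l)|) ^ 2 ≤
          ε * (t : ℝ) ^ 2 * ∑ i, ∑ j, μ i * P i j * (∑ l, |f j l - f i l|) ^ 2 := by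
  intro ε hε
  obtain ⟨m, hm⟩ := alpha36 ε hε
  refine ⟨2 ^ m, Nat.one_le_two_pow, ?_⟩
  intro n S _ _ μ P h1 _ h3 h4 h5 f
  have hch : IsCh μ P := ⟨h1, h3, h4, h5⟩
  have key := hm n S μ P hch f
  have hpow : (((2 ^ m : ℕ) : ℝ)) ^ 2 = 4 ^ m := by
    push_cast
    rw [← pow_mul, mul_comm, pow_mul]
    norm_num
  rw [hpow]
  refine le_trans ?_ key
  refine E1_mono (hch.pow2 m) (φ := fun i j =>
    (⨆ k : Fin n, |∑ l ∈ Finset.Iic k, (f j l - f i l)|) ^ 2) fun i j => ?_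
  have h6 := iSup_le_Nn f i j
  have h7 : 0 ≤ (⨆ k : Fin n, |∑ l ∈ Finset.Iic k, (f j l - f i l)|) :=
    Real.iSup_nonneg fun k => abs_nonneg _
  exact pow_le_pow_left₀ h7 h6 2

end Vale.Agent.P125.H36
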