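import Mathlib

namespace Vale.Agent.P125.H36

theorem anti_le {a : ℕ → ℝ} (ha : ∀ j, a (j + 1) ≤ a j) {i j : ℕ} (hij : i ≤ j) : a j ≤ a i :=
  antitone_nat_of_succ_le ha hij

theorem iter_abs (a b φ Kf : ℕ → ℝ) (P R K δ : ℝ) (J : ℕ)
    (ha : ∀ j, a (j + 1) ≤ a j) (hb : ∀ j, b (j + 1) ≤ b j) (hφ0 : φ 0 ≤ P * a 0)
    (hφ : ∀ j, 0 ≤ φ j)
    (hstep : ∀ j, φ (j + 1) ≤ φ j - a (j + 1) / 4 + a j / 8
      + 1 / (4 * P) * (a (j + 1) + (R * a (j + 1) + b (j + 1) / R) / 2)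
      + Kf (j + 1) * (a j - a (j + 1)))
    (hK : ∀ j, j ≤ J → Kf j ≤ K) (hb0 : b 0 ≤ R ^ 2 * a 0) (ha0 : 0 ≤ a 0)
    (hP : 8 * (1 + R) ≤ P) (hR : 0 < R) (hJ : 16 * (P + 1) ≤ (J : ℝ)) (hδ : 0 < δ)
    (hδ8 : δ ≤ 1 / 8) (hKδ : K * δ < 1) (hK0 : 0 ≤ K) :
    a J ≤ (1 - δ) * a 0 := by
  by_contra hcon
  push Not at hcon
  have hPpos : 0 < P := by linarith
  have haJ0 : a J ≤ a 0 := anti_le ha (Nat.zero_le J)
  have ha0pos : 0 < a 0 := by
    rcases ha0.lt_or_eq with h | h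
    · exact h
    · rw [← h] at hcon haJ0; linarith
  have hlow : ∀ j, j ≤ J → (1 - δ) * a 0 < a j := fun j hj => lt_of_lt_of_le hcon (anti_le ha hj)
  have hup : ∀ j, a j ≤ a 0 := fun j => anti_le ha (Nat.zero_le j)
  have hbup : ∀ j, b j ≤ R ^ 2 * a 0 := fun j => le_trans (anti_le hb (Nat.zero_le j)) hb0
  have hind : ∀ j, j ≤ J → φ j ≤ P * a 0 - j * (a 0 / 16) + K * (a 0 - a j) := by
    intro j
    induction j with
    | zero => intro _; simp; exact hφ0
    | succ j ih =>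
      intro hj
      have ih' := ih (by omega)
      have hs := hstep j
      have h1 : Kf (j + 1) * (a j - a (j + 1)) ≤ K * (a j - a (j + 1)) :=
        mul_le_mul_of_nonneg_right (hK _ hj) (by linarith [ha j])
      have h2 := hlow (j + 1) hj
      have h3 := hup j
      have h4 := hup (j + 1)
      have h5 : b (j + 1) / R ≤ R * a 0 := by
        rw [div_le_iff₀ hR]
        have := hbup (j + 1)
        nlinarith
      have h6 : R * a (j + 1) ≤ R * a 0 := mul_le_mul_of_nonneg_left h4 hR.le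
      have h7 : 1 / (4 * P) * (a (j + 1) + (R * a (j + 1) + b (j + 1) / R) / 2) ≤ a 0 / 32 := by
        have h8 : a (j + 1) + (R * a (j + 1) + b (j + 1) / R) / 2 ≤ (1 + R) * a 0 := by linarith
        have h9 : 1 / (4 * P) * (a (j + 1) + (R * a (j + 1) + b (j + 1) / R) / 2)
            ≤ 1 / (4 * P) * ((1 + R) * a 0) :=
          mul_le_mul_of_nonneg_left h8 (by positivity)
        have h10 : 1 / (4 * P) * ((1 + R) * a 0) ≤ a 0 / 32 := by
          rw [one_div, inv_mul_le_iff₀ (by positivity)]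
          nlinarith
        linarith
      have h11 : δ * a 0 ≤ a 0 / 8 := by nlinarith
      push_cast
      nlinarith
  have hfin := hind J le_rfl
  have h0 := hφ J
  have h1 : K * (a 0 - a J) ≤ K * (δ * a 0) := mul_le_mul_of_nonneg_left (by linarith) hK0
  have h2 : (J : ℝ) * (a 0 / 16) ≥ (P + 1) * a 0 := by nlinarith
  have h3 : K * (δ * a 0) < a 0 := by nlinarith
  linarith

theorem final_abs (A B : ℕ → ℝ) (J : ℕ) (δ ε R2 : ℝ) (hA : ∀ j, A (j + 1) ≤ A j)
    (hB : ∀ j, B (j + 1) ≤ B j) (hA0 : A 0 ≤ B 0) (hAnn : ∀ j, 0 ≤ A j)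
    (hKL : ∀ m, B m ≤ R2 * A m → A (m + J) ≤ (1 - δ) * A m) (hε : 0 < ε) (hR2 : 1 / ε ≤ R2)
    (hδ1 : δ ≤ 1) (k : ℕ) : A (k * J) ≤ max (ε * B 0) ((1 - δ) ^ k * B 0) := by
  induction k with
  | zero => simp; right; exact hA0
  | succ k ih =>
    have e : (k + 1) * J = k * J + J := by ring
    rw [e]
    by_cases hc : A (k * J) ≤ ε * B 0
    · exact le_max_of_le_left (le_trans (anti_le hA (Nat.le_add_right _ _)) hc)
    · push Not at hc
      have h1 : A (k * J) ≤ (1 - δ) ^ k * B 0 := by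
        rcases le_max_iff.mp ih with h | h
        · linarith
        · exact h
      have h2 : B (k * J) ≤ R2 * A (k * J) := by
        have h3 : B (k * J) ≤ B 0 := anti_le hB (Nat.zero_le _)
        have h4 : B 0 ≤ 1 / ε * A (k * J) := by
          rw [one_div, le_inv_mul_iff₀ hε]; exact hc.le
        have hApos : 0 ≤ A (k * J) := hAnn _
        have h5 : 1 / ε * A (k * J) ≤ R2 * A (k * J) := mul_le_mul_of_nonneg_right hR2 hApos
        linarith
      have h6 := hKL _ h2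
      refine le_max_of_le_right ?_
      have h7 : (1 - δ) * A (k * J) ≤ (1 - δ) * ((1 - δ) ^ k * B 0) :=
        mul_le_mul_of_nonneg_left h1 (by linarith)
      calc A (k * J + J) ≤ (1 - δ) * A (k * J) := h6
        _ ≤ (1 - δ) * ((1 - δ) ^ k * B 0) := h7
        _ = (1 - δ) ^ (k + 1) * B 0 := by ring

end Vale.Agent.P125.H36
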