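import Vale.Agent.P125.H36.Step
import Vale.Agent.P125.H36.Iter

namespace Vale.Agent.P125.H36

open scoped BigOperators

theorem pow_two_succ {S : Type} [Fintype S] [DecidableEq S] (Q : Matrix S S ℝ) (j : ℕ) :
    Q ^ (2 ^ (j + 1)) = Q ^ (2 ^ j) * Q ^ (2 ^ j) := by
  rw [pow_succ 2 j, mul_two, pow_add]

theorem IsCh.pow2 {S : Type} [Fintype S] [DecidableEq S] {μ : S → ℝ} {Q : Matrix S S ℝ}
    (h : IsCh μ Q) (j : ℕ) : IsCh μ (Q ^ (2 ^ j)) := by
  induction j with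
  | zero => simpa using h
  | succ j ih => rw [pow_two_succ]; exact ih.sq

noncomputable def gs (j : ℕ) : ℝ := (1 / 2) / 4 ^ j

theorem gs_pos (j : ℕ) : 0 < gs j := by unfold gs; positivity

theorem gs_succ (j : ℕ) : 4 * gs (j + 1) = gs j := by
  unfold gs
  rw [pow_succ]
  field_simp

theorem gs_succ_le (j : ℕ) : gs (j + 1) ≤ 1 / 8 := by
  have h1 : gs j ≤ 1 / 2 := by
    unfold gs
    rw [div_le_iff₀ (by positivity)]
    have : (1 : ℝ) ≤ 4 ^ j := one_le_pow₀ (by norm_num)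
    linarith
  have := gs_succ j
  linarith

theorem gs_anti {i j : ℕ} (hij : i ≤ j) : gs j ≤ gs i := by
  unfold gs
  apply div_le_div_of_nonneg_left (by norm_num) (by positivity)
  exact pow_le_pow_right₀ (by norm_num) hij

theorem norm_step {p p' a a' b' k1 Kf R Y : ℝ} (hY : 0 < Y) (hR : 0 < R)
    (h : p' ≤ 4 * p - a' / 4 + a / 2 + k1 * (a' + (R * a' + b' / R) / 2) + Kf * (4 * a - a')) :
    p' / (Y * 4) ≤ p / Y - a' / (Y * 4) / 4 + a / Y / 8
      + k1 * (a' / (Y * 4) + (R * (a' / (Y * 4)) + b' / (Y * 4) / R) / 2)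
      + Kf * (a / Y - a' / (Y * 4)) := by
  have h1 : p' / (Y * 4) ≤
      (4 * p - a' / 4 + a / 2 + k1 * (a' + (R * a' + b' / R) / 2) + Kf * (4 * a - a')) / (Y * 4) :=
    div_le_div_of_nonneg_right h (by positivity)
  refine le_trans h1 (le_of_eq ?_)
  field_simp
  ring

theorem div_step {x' x Y : ℝ} (hY : 0 < Y) (h : x' ≤ 4 * x) : x' / (Y * 4) ≤ x / Y := by
  rw [div_le_div_iff₀ (by positivity) hY]
  nlinarith

theorem KL (R : ℝ) (hR : 0 < R) : ∃ (J : ℕ) (δ : ℝ), 0 < δ ∧ δ ≤ 1 ∧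
    ∀ (n : ℕ) (S : Type) [Fintype S] [DecidableEq S] (μ : S → ℝ) (Q : Matrix S S ℝ),
      IsCh μ Q → ∀ f : S → Fin n → ℝ, be μ Q f ≤ R ^ 2 * al μ Q f →
        al μ (Q ^ (2 ^ J)) f / 4 ^ J ≤ (1 - δ) * al μ Q f := by
  set P : ℕ := ⌈8 * (1 + R)⌉₊ with hPdef
  have hP8 : 8 * (1 + R) ≤ (P : ℝ) := Nat.le_ceil _
  have hP1r : (1 : ℝ) ≤ (P : ℝ) := by linarith
  have hP1 : 1 ≤ P := by exact_mod_cast hP1r
  set J : ℕ := 16 * (P + 1) with hJdef
  set K : ℝ := 18 * P + 6 * P / gs J with hKdef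
  have hK0 : 0 ≤ K := by have := gs_pos J; positivity
  refine ⟨J, 1 / (2 * K + 8), by positivity, ?_, ?_⟩
  · rw [div_le_one (by positivity)]; linarith
  intro n S _ _ μ Q h f hbe
  have hch := fun j => h.pow2 j
  have key := iter_abs (fun j => al μ (Q ^ (2 ^ j)) f / 4 ^ j) (fun j => be μ (Q ^ (2 ^ j)) f / 4 ^ j)
    (fun j => Ph μ (Q ^ (2 ^ j)) f (gs j) P / 4 ^ j) (fun j => 18 * P + 6 * P / gs j)
    P R K (1 / (2 * K + 8)) J ?_ ?_ ?_ ?_ ?_ ?_ ?_ ?_ hP8 hR ?_ (by positivity) ?_ ?_ hK0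
  · simpa using key
  · intro j
    have h1 := (dbl (hch j) f (gs_pos (j + 1)) (gs_succ_le j) hP1 hR).1
    rw [← pow_two_succ] at h1
    show al μ (Q ^ (2 ^ (j + 1))) f / 4 ^ (j + 1) ≤ al μ (Q ^ (2 ^ j)) f / 4 ^ j
    rw [pow_succ (4 : ℝ) j]
    exact div_step (by positivity) h1
  · intro j
    have h1 := be_sq_le (hch j) f
    rw [← pow_two_succ] at h1
    show be μ (Q ^ (2 ^ (j + 1))) f / 4 ^ (j + 1) ≤ be μ (Q ^ (2 ^ j)) f / 4 ^ j
    rw [pow_succ (4 : ℝ) j]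
    exact div_step (by positivity) h1
  · have := Ph_le h f (gs 0) P
    simpa using this
  · intro j
    have := Ph_nonneg (hch j) f (gs j) P
    positivity
  · intro j
    have h1 := (dbl (hch j) f (gs_pos (j + 1)) (gs_succ_le j) hP1 hR).2
    rw [← pow_two_succ, gs_succ] at h1
    have := norm_step (Y := 4 ^ j) (by positivity) hR h1
    show Ph μ (Q ^ (2 ^ (j + 1))) f (gs (j + 1)) P / 4 ^ (j + 1) ≤ _
    rw [pow_succ (4 : ℝ) j]
    exact this
  · intro j hj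
    have h1 := gs_anti hj
    have h2 : 6 * (P : ℝ) / gs j ≤ 6 * P / gs J :=
      div_le_div_of_nonneg_left (by positivity) (gs_pos J) h1
    show 18 * (P : ℝ) + 6 * P / gs j ≤ K
    rw [hKdef]
    linarith
  · simpa using hbe
  · have := al_nonneg h f
    simpa using this
  · rw [hJdef]; push_cast; linarith
  · rw [div_le_div_iff₀ (by positivity) (by norm_num)]; linarith
  · rw [mul_one_div, div_lt_one (by positivity)]; linarith

theorem alpha36 (ε : ℝ) (hε : 0 < ε) : ∃ m : ℕ,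
    ∀ (n : ℕ) (S : Type) [Fintype S] [DecidableEq S] (μ : S → ℝ) (P : Matrix S S ℝ),
      IsCh μ P → ∀ f : S → Fin n → ℝ,
        al μ (P ^ (2 ^ m)) f ≤ ε * 4 ^ m * be μ P f := by
  have hR : 0 < 1 / ε + 1 := by positivity
  obtain ⟨J, δ, hδ0, hδ1, hKL⟩ := KL (1 / ε + 1) hR
  obtain ⟨k, hk⟩ := exists_pow_lt_of_lt_one hε (show 1 - δ < 1 by linarith)
  refine ⟨k * J, ?_⟩
  intro n S _ _ μ P h f
  have hch := fun j => h.pow2 j
  have hfin := final_abs (fun j => al μ (P ^ (2 ^ j)) f / 4 ^ j)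
    (fun j => be μ (P ^ (2 ^ j)) f / 4 ^ j) J δ ε ((1 / ε + 1) ^ 2) ?_ ?_ ?_ ?_ ?_ hε ?_ hδ1 k
  · have hU : 0 ≤ be μ P f := be_nonneg h f
    have h1 : al μ (P ^ (2 ^ (k * J))) f / 4 ^ (k * J) ≤ ε * be μ P f := by
      have h2 : max (ε * be μ P f) ((1 - δ) ^ k * be μ P f) = ε * be μ P f :=
        max_eq_left (mul_le_mul_of_nonneg_right hk.le hU)
      have h3 := hfin
      simp only [pow_zero, pow_one, div_one] at h3
      rw [h2] at h3
      exact h3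
    rw [div_le_iff₀ (by positivity)] at h1
    linarith
  · intro j
    have h1 := (dbl (hch j) f (gs_pos (j + 1)) (gs_succ_le j) le_rfl one_pos).1
    rw [← pow_two_succ] at h1
    show al μ (P ^ (2 ^ (j + 1))) f / 4 ^ (j + 1) ≤ al μ (P ^ (2 ^ j)) f / 4 ^ j
    rw [pow_succ (4 : ℝ) j]
    exact div_step (by positivity) h1
  · intro j
    have h1 := be_sq_le (hch j) f
    rw [← pow_two_succ] at h1
    show be μ (P ^ (2 ^ (j + 1))) f / 4 ^ (j + 1) ≤ be μ (P ^ (2 ^ j)) f / 4 ^ j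
    rw [pow_succ (4 : ℝ) j]
    exact div_step (by positivity) h1
  · have := al_le_be h f
    simpa using this
  · intro j
    have := al_nonneg (hch j) f
    positivity
  · intro m hm
    have hm' : be μ (P ^ (2 ^ m)) f ≤ (1 / ε + 1) ^ 2 * al μ (P ^ (2 ^ m)) f := by
      have h4 : (0 : ℝ) < 4 ^ m := by positivity
      have h5 : be μ (P ^ (2 ^ m)) f / 4 ^ m ≤ (1 / ε + 1) ^ 2 * (al μ (P ^ (2 ^ m)) f / 4 ^ m) := hm
      rw [← mul_div_assoc, div_le_div_iff_of_pos_right h4] at h5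
      exact h5
    have h6 := hKL n S μ (P ^ (2 ^ m)) (hch m) f hm'
    rw [← pow_mul, ← pow_add] at h6
    show al μ (P ^ (2 ^ (m + J))) f / 4 ^ (m + J) ≤ (1 - δ) * (al μ (P ^ (2 ^ m)) f / 4 ^ m)
    have e1 : al μ (P ^ (2 ^ (m + J))) f / 4 ^ (m + J)
        = al μ (P ^ (2 ^ (m + J))) f / 4 ^ J / 4 ^ m := by
      rw [pow_add (4 : ℝ) m J, div_div, mul_comm]
    rw [e1, ← mul_div_assoc]
    exact div_le_div_of_nonneg_right h6 (by positivity)
  · have : 0 < 1 / ε := by positivity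
    nlinarith

end Vale.Agent.P125.H36
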