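import Vale.Agent.P125.H36.Pat

namespace Vale.Agent.P125.H36

theorem notGD_bound {a b m g : ℝ} (ha : 0 ≤ a) (hb : 0 ≤ b) (hm0 : 0 ≤ m) (hg : 0 < g)
    (hm : m ≤ a + b) (h : ¬ GD g a b m) :
    (a + b) ^ 2 ≤ 9 * (a - b) ^ 2 + 3 * ((a + b) ^ 2 - m ^ 2) / g := by
  unfold GD at h
  push Not at h
  have hΓ : 0 ≤ (a + b) ^ 2 - m ^ 2 := by nlinarith
  have hΓg : 0 ≤ 3 * ((a + b) ^ 2 - m ^ 2) / g := by positivity
  -- wlog-free: treat both orders
  rcases le_total a b with hab | hab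
  · rw [min_eq_left hab, abs_of_nonpos (by linarith)] at h
    by_cases hc : a < b - a
    · nlinarith
    · push Not at hc
      have h1 : g * a < a + b - m := by nlinarith
      have h2 : g * (a + b) ^ 2 ≤ 3 * ((a + b) ^ 2 - m ^ 2) := by
        have h3 : (a + b - m) * (a + b) ≤ (a + b) ^ 2 - m ^ 2 := by nlinarith
        have h4 : g * a * (a + b) ≤ (a + b - m) * (a + b) :=
          mul_le_mul_of_nonneg_right h1.le (by linarith)
        have h5 : g * (a + b) ^ 2 ≤ 3 * (g * a * (a + b)) := by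
          have : (a + b) ^ 2 ≤ 3 * (a * (a + b)) := by nlinarith
          nlinarith
        linarith
      have h6 : (a + b) ^ 2 ≤ 3 * ((a + b) ^ 2 - m ^ 2) / g := by
        rw [le_div_iff₀ hg]; linarith
      nlinarith [sq_nonneg (a - b)]
  · rw [min_eq_right hab, abs_of_nonneg (by linarith)] at h
    by_cases hc : b < a - b
    · nlinarith
    · push Not at hc
      have h1 : g * b < a + b - m := by nlinarith
      have h2 : g * (a + b) ^ 2 ≤ 3 * ((a + b) ^ 2 - m ^ 2) := by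
        have h3 : (a + b - m) * (a + b) ≤ (a + b) ^ 2 - m ^ 2 := by nlinarith
        have h4 : g * b * (a + b) ≤ (a + b - m) * (a + b) :=
          mul_le_mul_of_nonneg_right h1.le (by linarith)
        have h5 : g * (a + b) ^ 2 ≤ 3 * (g * b * (a + b)) := by
          have : (a + b) ^ 2 ≤ 3 * (b * (a + b)) := by nlinarith
          nlinarith
        linarith
      have h6 : (a + b) ^ 2 ≤ 3 * ((a + b) ^ 2 - m ^ 2) / g := by
        rw [le_div_iff₀ hg]; linarith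
      nlinarith [sq_nonneg (a - b)]

theorem pw_good {a b m V G Pr qh ph ph' qr : ℝ} {same : Prop} [Decidable same]
    (hm0 : 0 ≤ m) (hPr : 1 ≤ Pr) (hm : m ≤ a + b) (hG : 8 * ((a + b) ^ 2 - m ^ 2) ≤ G)
    (hq0 : 0 ≤ qh) (e1 : qh ≤ ph) (e2 : qh ≤ ph')
    (h3 : same → (qh + 1 ≤ ph ∨ qh + 1 ≤ ph') ∨ Pr ≤ qr)
    (hq : (qr - 1) * m ≤ V) (hV : 0 ≤ V) :
    m ^ 2 * qh + a * b * (if same then 1 else 0) ≤
      2 * a ^ 2 * ph + 2 * b ^ 2 * ph' + (m ^ 2 + m * V) / (4 * Pr) + 18 * Pr * (a - b) ^ 2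
        + 6 * Pr * G := by
  have hΓ : 0 ≤ (a + b) ^ 2 - m ^ 2 := by nlinarith
  have hΔ : 0 ≤ (a - b) ^ 2 := sq_nonneg _
  have hT : 0 ≤ (m ^ 2 + m * V) / (4 * Pr) := by positivity
  have hPΔ : (a - b) ^ 2 ≤ Pr * (a - b) ^ 2 := by nlinarith
  have hPΓ : G ≤ Pr * G := by nlinarith
  have hm2 : m ^ 2 ≤ 2 * a ^ 2 + 2 * b ^ 2 := by nlinarith
  have hbase : m ^ 2 * qh ≤ 2 * (a ^ 2 * qh) + 2 * (b ^ 2 * qh) := by
    have := mul_le_mul_of_nonneg_right hm2 hq0
    linarith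
  have ea : a ^ 2 * qh ≤ a ^ 2 * ph := mul_le_mul_of_nonneg_left e1 (sq_nonneg a)
  have eb : b ^ 2 * qh ≤ b ^ 2 * ph' := mul_le_mul_of_nonneg_left e2 (sq_nonneg b)
  by_cases hs : same
  · rw [if_pos hs, mul_one]
    rcases h3 hs with (h5 | h5) | h5
    · have ea' : a ^ 2 * (qh + 1) ≤ a ^ 2 * ph := mul_le_mul_of_nonneg_left h5 (sq_nonneg a)
      have hk : a * b ≤ 2 * a ^ 2 + (a - b) ^ 2 / 2 := by nlinarith [sq_nonneg (2 * a - b)]
      linarith
    · have eb' : b ^ 2 * (qh + 1) ≤ b ^ 2 * ph' := mul_le_mul_of_nonneg_left h5 (sq_nonneg b)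
      have hk : a * b ≤ 2 * b ^ 2 + (a - b) ^ 2 / 2 := by nlinarith [sq_nonneg (2 * b - a)]
      linarith
    · have hk : a * b ≤ (m ^ 2 + ((a + b) ^ 2 - m ^ 2)) / 4 := by nlinarith [sq_nonneg (a - b)]
      have hk2 : m ^ 2 / 4 ≤ (m ^ 2 + m * V) / (4 * Pr) := by
        rw [le_div_iff₀ (by positivity)]
        have h7 : m * ((qr - 1) * m) ≤ m * V := mul_le_mul_of_nonneg_left hq hm0
        have h8 := mul_le_mul_of_nonneg_left h5 (sq_nonneg m)
        linarith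
      linarith
  · rw [if_neg hs]
    linarith

theorem pw_bad {a b m G Pr qh T X Y : ℝ} {same : Prop} [Decidable same]
    (ha : 0 ≤ a) (hb : 0 ≤ b) (hPr : 1 ≤ Pr) (hm2 : m ^ 2 ≤ (a + b) ^ 2)
    (hq0 : 0 ≤ qh) (hqP : qh ≤ Pr) (hT : 0 ≤ T) (hX : 0 ≤ X) (hY : 0 ≤ Y)
    (hb1 : (a + b) ^ 2 ≤ 9 * (a - b) ^ 2 + 3 * G) :
    m ^ 2 * qh + a * b * (if same then 1 else 0) ≤
      X + Y + T + 18 * Pr * (a - b) ^ 2 + 6 * Pr * G := by
  have h1 : m ^ 2 * qh ≤ (a + b) ^ 2 * Pr := mul_le_mul hm2 hqP hq0 (sq_nonneg _)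
  have hab : 0 ≤ a * b := mul_nonneg ha hb
  have h2 : a * b * (if same then (1 : ℝ) else 0) ≤ (a + b) ^ 2 * Pr := by
    have h4 : a * b * (if same then (1 : ℝ) else 0) ≤ a * b := by
      split_ifs <;> linarith
    have h5 : (a + b) ^ 2 ≤ (a + b) ^ 2 * Pr := by nlinarith [sq_nonneg (a + b)]
    nlinarith [sq_nonneg (a - b)]
  have h3 : (a + b) ^ 2 * Pr ≤ (9 * (a - b) ^ 2 + 3 * G) * Pr :=
    mul_le_mul_of_nonneg_right hb1 (by linarith)
  linarith

theorem pw {a b m V g : ℝ} {P p p' q : ℕ} {same : Prop} [Decidable same]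
    (ha : 0 ≤ a) (hb : 0 ≤ b) (hm0 : 0 ≤ m) (hV : 0 ≤ V) (hg : 0 < g) (hg8 : g ≤ 1 / 8)
    (hP : 1 ≤ P) (hm : m ≤ a + b)
    (hGD : 0 < a → 0 < b → GD g a b m → q ≤ p ∧ q ≤ p' ∧ (same → 2 * q + 1 ≤ p + p'))
    (hq : ((q : ℝ) - 1) * m ≤ V) :
    m ^ 2 * ((min q P : ℕ) : ℝ) + a * b * (if same then 1 else 0) ≤
      2 * a ^ 2 * ((min p P : ℕ) : ℝ) + 2 * b ^ 2 * ((min p' P : ℕ) : ℝ)
        + (m ^ 2 + m * V) / (4 * P) + 18 * P * (a - b) ^ 2
        + 6 * P * (((a + b) ^ 2 - m ^ 2) / g) := by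
  have hPr : (1 : ℝ) ≤ (P : ℝ) := by exact_mod_cast hP
  have hΓ : 0 ≤ (a + b) ^ 2 - m ^ 2 := by nlinarith
  have hΓg8 : 8 * ((a + b) ^ 2 - m ^ 2) ≤ ((a + b) ^ 2 - m ^ 2) / g := by
    rw [le_div_iff₀ hg]; nlinarith
  have hqP : ((min q P : ℕ) : ℝ) ≤ (P : ℝ) := by exact_mod_cast min_le_right q P
  have hq0 : (0 : ℝ) ≤ ((min q P : ℕ) : ℝ) := Nat.cast_nonneg _
  have hT : 0 ≤ (m ^ 2 + m * V) / (4 * P) := by positivity
  have ht1 : 0 ≤ 2 * a ^ 2 * ((min p P : ℕ) : ℝ) := by positivity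
  have ht2 : 0 ≤ 2 * b ^ 2 * ((min p' P : ℕ) : ℝ) := by positivity
  by_cases hgd : GD g a b m
  · by_cases hpos : 0 < a ∧ 0 < b
    · obtain ⟨h1, h2, h3⟩ := hGD hpos.1 hpos.2 hgd
      have e1 : ((min q P : ℕ) : ℝ) ≤ ((min p P : ℕ) : ℝ) := by
        exact_mod_cast min_le_min_right P h1
      have e2 : ((min q P : ℕ) : ℝ) ≤ ((min p' P : ℕ) : ℝ) := by
        exact_mod_cast min_le_min_right P h2
      refine pw_good (qr := (q : ℝ)) hm0 hPr hm hΓg8 hq0 e1 e2 ?_ hq hV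
      intro hs
      have h4 := h3 hs
      by_cases hqlt : q < P
      · left
        have h5 : min q P + 1 ≤ min p P ∨ min q P + 1 ≤ min p' P := by omega
        rcases h5 with h5 | h5
        · left; exact_mod_cast h5
        · right; exact_mod_cast h5
      · right
        push Not at hqlt
        exact_mod_cast hqlt
    · -- degenerate: a = 0 or b = 0, then everything vanishes
      have hmin : min a b = 0 := by
        rcases not_and_or.mp hpos with h | h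
        · have : a = 0 := le_antisymm (not_lt.mp h) ha
          rw [this]; exact min_eq_left hb
        · have : b = 0 := le_antisymm (not_lt.mp h) hb
          rw [this]; exact min_eq_right ha
      unfold GD at hgd
      rw [hmin] at hgd
      have habs : 0 ≤ g * |a - b| := by positivity
      have h1 : g * |a - b| ≤ 0 := by linarith
      have h2 : |a - b| = 0 := by
        have := abs_nonneg (a - b)
        nlinarith
      have h3 : a = b := by
        have := abs_eq_zero.mp h2; linarith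
      have h4 : a = 0 := by
        rw [← h3, min_self] at hmin; exact hmin
      have h5 : b = 0 := by rw [← h3]; exact h4
      have h6 : m = 0 := by linarith
      subst h4 h5 h6
      simp
  · have hb1 := notGD_bound ha hb hm0 hg hm hgd
    have hb2 : 3 * ((a + b) ^ 2 - m ^ 2) / g = 3 * (((a + b) ^ 2 - m ^ 2) / g) := by ring
    rw [hb2] at hb1
    exact pw_bad ha hb hPr (by linarith) hq0 hqP hT ht1 ht2 hb1

end Vale.Agent.P125.H36
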