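import Vale.Agent.P125.H36.Alt

namespace Vale.Agent.P125.H36

open scoped BigOperators

variable {n : ℕ}

/-- sign pattern of `A` at height `θ` -/
noncomputable def pat (θ : ℝ) (A : Fin (n + 1) → ℝ) (x : Fin (n + 1)) : ℤ :=
  if θ ≤ A x then 1 else if A x ≤ -θ then -1 else 0

/-- partial sums -/
noncomputable def ps (v : Fin n → ℝ) (x : Fin (n + 1)) : ℝ :=
  ∑ i : Fin n, if i.val < x.val then v i else 0

/-- tail of the l1 norm -/
noncomputable def tl (v : Fin n → ℝ) (x : Fin (n + 1)) : ℝ :=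
  ∑ i : Fin n, if x.val ≤ i.val then |v i| else 0

theorem tl_nonneg (v : Fin n → ℝ) (x : Fin (n + 1)) : 0 ≤ tl v x := by
  unfold tl
  apply Finset.sum_nonneg
  intro i _
  split_ifs
  · exact abs_nonneg _
  · exact le_rfl

theorem tl_le (v : Fin n → ℝ) (x : Fin (n + 1)) : tl v x ≤ ∑ i, |v i| := by
  unfold tl
  apply Finset.sum_le_sum
  intro i _
  split_ifs
  · exact le_rfl
  · exact abs_nonneg _

theorem ps_step (v : Fin n → ℝ) {x y : Fin (n + 1)} (hxy : x < y) :
    |ps v y - ps v x| + tl v y ≤ tl v x := by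
  have hxy' : x.val < y.val := Fin.lt_def.mp hxy
  have h1 : ps v y - ps v x = ∑ i : Fin n,
      ((if i.val < y.val then v i else 0) - (if i.val < x.val then v i else 0)) := by
    unfold ps
    rw [Finset.sum_sub_distrib]
  have h2 : |ps v y - ps v x| ≤ ∑ i : Fin n,
      |(if i.val < y.val then v i else 0) - (if i.val < x.val then v i else 0)| := by
    rw [h1]
    exact Finset.abs_sum_le_sum_abs _ _
  have h3 : ∑ i : Fin n,
      |(if i.val < y.val then v i else 0) - (if i.val < x.val then v i else 0)| + tl v y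
        ≤ tl v x := by
    unfold tl
    rw [← Finset.sum_add_distrib]
    apply Finset.sum_le_sum
    intro i _
    have := abs_nonneg (v i)
    split_ifs <;> first | omega | simp
  linarith

theorem alt_var (v : Fin n → ℝ) {θ : ℝ} (hθ : 0 ≤ θ) {k : ℕ} {s : ℤ} {x : Fin (n + 1)}
    (h : Alt (pat θ (ps v)) k s x) (hs : s = 1 ∨ s = -1) :
    ((k : ℝ) - 1) * (2 * θ) ≤ tl v x := by
  induction h with
  | one h => simpa using tl_nonneg v _
  | cons hxy h t ih =>
    rename_i k x y s
    have ih' := ih (by rcases hs with h | h <;> simp [h])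
    have hy := t.head
    have hstep := ps_step v hxy
    have hjump : 2 * θ ≤ |ps v y - ps v x| := by
      unfold pat at h hy
      rcases hs with hs | hs
      · subst hs
        have hx1 : θ ≤ ps v x := by
          by_contra hc
          rw [if_neg hc] at h
          split_ifs at h <;> omega
        have hy1 : ps v y ≤ -θ := by
          by_contra hc
          split_ifs at hy <;> omega
        rw [abs_sub_comm]
        exact le_trans (by linarith) (le_abs_self _)
      · subst hs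
        have hy1 : θ ≤ ps v y := by
          by_contra hc
          rw [if_neg hc] at hy
          split_ifs at hy <;> omega
        have hx1 : ps v x ≤ -θ := by
          by_contra hc
          split_ifs at h <;> omega
        exact le_trans (by linarith) (le_abs_self _)
    push_cast
    nlinarith

theorem ell_var (v : Fin n → ℝ) {θ : ℝ} (hθ : 0 ≤ θ) {s : ℤ} (hs : s = 1 ∨ s = -1) :
    ((ell (pat θ (ps v)) s : ℝ) - 1) * (2 * θ) ≤ ∑ i, |v i| := by
  have hnn : 0 ≤ ∑ i, |v i| := Finset.sum_nonneg (fun i _ => abs_nonneg _)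
  by_cases h : ell (pat θ (ps v)) s = 0
  · rw [h]
    simp
    nlinarith
  · obtain ⟨x, hx⟩ := ell_spec h
    exact le_trans (alt_var v hθ hx hs) (tl_le v x)

theorem pl_var (v : Fin n → ℝ) {θ : ℝ} (hθ : 0 ≤ θ) :
    ((pl (pat θ (ps v)) : ℝ) - 1) * (2 * θ) ≤ ∑ i, |v i| := by
  unfold pl
  rcases max_cases (ell (pat θ (ps v)) 1) (ell (pat θ (ps v)) (-1)) with h | h
  · rw [h.1]; exact ell_var v hθ (Or.inl rfl)
  · rw [h.1]; exact ell_var v hθ (Or.inr rfl)

/-- sup norm on `Fin (n+1) → ℝ` -/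
noncomputable def nrm (A : Fin (n + 1) → ℝ) : ℝ :=
  Finset.univ.sup' Finset.univ_nonempty (fun x => |A x|)

theorem abs_le_nrm (A : Fin (n + 1) → ℝ) (x : Fin (n + 1)) : |A x| ≤ nrm A :=
  Finset.le_sup' (fun x => |A x|) (Finset.mem_univ x)

theorem exists_nrm (A : Fin (n + 1) → ℝ) : ∃ x, |A x| = nrm A := by
  obtain ⟨x, _, hx⟩ := Finset.exists_mem_eq_sup' Finset.univ_nonempty (fun x => |A x|)
  exact ⟨x, hx.symm⟩

theorem nrm_nonneg (A : Fin (n + 1) → ℝ) : 0 ≤ nrm A :=
  le_trans (abs_nonneg _) (abs_le_nrm A 0)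

theorem nrm_sub_le (A B : Fin (n + 1) → ℝ) : nrm (fun x => A x - B x) ≤ nrm A + nrm B := by
  obtain ⟨x, hx⟩ := exists_nrm (fun x => A x - B x)
  rw [← hx]
  have h1 := abs_le_nrm A x
  have h2 := abs_le_nrm B x
  have h3 : |A x - B x| ≤ |A x| + |B x| := abs_sub _ _
  linarith

theorem pat_ne (A : Fin (n + 1) → ℝ) {θ : ℝ} (hθ : θ ≤ nrm A) :
    ∃ x, pat θ A x = 1 ∨ pat θ A x = -1 := by
  obtain ⟨x, hx⟩ := exists_nrm A
  refine ⟨x, ?_⟩
  unfold pat
  by_cases h : θ ≤ A x
  · left; rw [if_pos h]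
  · right
    rw [if_neg h, if_pos]
    rcases abs_cases (A x) with h1 | h1
    · exfalso; apply h; linarith [h1.1]
    · linarith [h1.1]

/-- the good event -/
def GD (g a b m : ℝ) : Prop := (a + b - m) + g * |a - b| ≤ 2 * g * min a b

theorem gd_arith {g a b m : ℝ} (hg : 0 ≤ g) (hm : m ≤ a + b) (h : GD g a b m) :
    (1 - 4 * g) * a ≤ (1 - g) * m - b ∧ (1 - 4 * g) * b ≤ (1 - g) * m - a := by
  unfold GD at h
  have h1 : g * m ≤ g * (a + b) := mul_le_mul_of_nonneg_left hm hg
  rcases le_total a b with hab | hab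
  · rw [min_eq_left hab, abs_of_nonpos (by linarith)] at h
    have h2 : g * a ≤ g * b := mul_le_mul_of_nonneg_left hab hg
    constructor <;> nlinarith
  · rw [min_eq_right hab, abs_of_nonneg (by linarith)] at h
    have h2 : g * b ≤ g * a := mul_le_mul_of_nonneg_left hab hg
    constructor <;> nlinarith

theorem incl (A B : Fin (n + 1) → ℝ) {g : ℝ} (hg : 0 ≤ g) (hg4 : 4 * g < 1)
    (ha : 0 < nrm A) (hb : 0 < nrm B)
    (h : GD g (nrm A) (nrm B) (nrm (fun x => A x - B x))) (x : Fin (n + 1))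
    (hx : pat ((1 - g) * nrm (fun x => A x - B x)) (fun x => A x - B x) x ≠ 0) :
    pat ((1 - 4 * g) * nrm A) A x
        = pat ((1 - g) * nrm (fun x => A x - B x)) (fun x => A x - B x) x ∧
    pat ((1 - 4 * g) * nrm B) B x
        = - pat ((1 - g) * nrm (fun x => A x - B x)) (fun x => A x - B x) x := by
  obtain ⟨h1, h2⟩ := gd_arith hg (nrm_sub_le A B) h
  have hA := abs_le.mp (abs_le_nrm A x)
  have hB := abs_le.mp (abs_le_nrm B x)
  have hpa : 0 < (1 - 4 * g) * nrm A := mul_pos (by linarith) ha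
  have hpb : 0 < (1 - 4 * g) * nrm B := mul_pos (by linarith) hb
  set m := nrm (fun x => A x - B x) with hm
  unfold pat at hx ⊢
  by_cases c1 : (1 - g) * m ≤ A x - B x
  · rw [if_pos c1]
    have e1 : (1 - 4 * g) * nrm A ≤ A x := by linarith [hB.2]
    have e2 : B x ≤ -((1 - 4 * g) * nrm B) := by linarith [hA.2]
    have e3 : ¬ (1 - 4 * g) * nrm B ≤ B x := by intro h; linarith
    rw [if_pos e1, if_neg e3, if_pos e2]
    exact ⟨rfl, rfl⟩
  · rw [if_neg c1] at hx ⊢
    by_cases c2 : A x - B x ≤ -((1 - g) * m)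
    · rw [if_pos c2]
      have e1 : A x ≤ -((1 - 4 * g) * nrm A) := by linarith [hB.1]
      have e3 : ¬ (1 - 4 * g) * nrm A ≤ A x := by intro h; linarith
      have e2 : (1 - 4 * g) * nrm B ≤ B x := by linarith [hA.1]
      rw [if_neg e3, if_pos e1, if_pos e2]
      exact ⟨rfl, by norm_num⟩
    · rw [if_neg c2] at hx
      exact absurd rfl hx

end Vale.Agent.P125.H36
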