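import Vale.Agent.P125.H36.Dbl

namespace Vale.Agent.P125.H36

open scoped BigOperators

variable {S : Type} [Fintype S] {n : ℕ}

noncomputable def al (μ : S → ℝ) (Q : Matrix S S ℝ) (f : S → Fin n → ℝ) : ℝ :=
  E1 μ Q (fun z y => (Nn f z y) ^ 2)

noncomputable def be (μ : S → ℝ) (Q : Matrix S S ℝ) (f : S → Fin n → ℝ) : ℝ :=
  E1 μ Q (fun z y => (Vv f z y) ^ 2)

noncomputable def Ph (μ : S → ℝ) (Q : Matrix S S ℝ) (f : S → Fin n → ℝ) (g : ℝ) (P : ℕ) : ℝ :=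
  E1 μ Q (fun z y => (Nn f z y) ^ 2 * ((min (pp f g z y) P : ℕ) : ℝ))

variable {μ : S → ℝ} {Q : Matrix S S ℝ}

theorem al_nonneg (h : IsCh μ Q) (f : S → Fin n → ℝ) : 0 ≤ al μ Q f :=
  E1_nonneg h fun _ _ => sq_nonneg _

theorem be_nonneg (h : IsCh μ Q) (f : S → Fin n → ℝ) : 0 ≤ be μ Q f :=
  E1_nonneg h fun _ _ => sq_nonneg _

theorem Ph_nonneg (h : IsCh μ Q) (f : S → Fin n → ℝ) (g : ℝ) (P : ℕ) : 0 ≤ Ph μ Q f g P :=
  E1_nonneg h fun _ _ => mul_nonneg (sq_nonneg _) (Nat.cast_nonneg _)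

theorem Ph_le (h : IsCh μ Q) (f : S → Fin n → ℝ) (g : ℝ) (P : ℕ) :
    Ph μ Q f g P ≤ P * al μ Q f := by
  unfold Ph al
  rw [← E1_mul]
  refine E1_mono h fun z y => ?_
  have : ((min (pp f g z y) P : ℕ) : ℝ) ≤ (P : ℝ) := by exact_mod_cast min_le_right _ _
  nlinarith [sq_nonneg (Nn f z y)]

theorem al_le_be (h : IsCh μ Q) (f : S → Fin n → ℝ) : al μ Q f ≤ be μ Q f := by
  refine E1_mono h fun z y => ?_
  have h1 := Nn_le_Vv f z y
  have h2 := Nn_nonneg f z y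
  nlinarith

theorem be_sq_le (h : IsCh μ Q) (f : S → Fin n → ℝ) : be μ (Q * Q) f ≤ 4 * be μ Q f := by
  have h1 : E3 μ Q (fun _ x y => (Vv f x y) ^ 2) ≤
      E3 μ Q (fun z x y => 2 * (Vv f z y) ^ 2 + 2 * (Vv f z x) ^ 2) := by
    refine E3_mono h fun z x y => ?_
    have h1 := Vv_tri f z x y
    have h2 := Vv_nonneg f x y
    nlinarith [sq_nonneg (Vv f z y - Vv f z x)]
  rw [E3_mid h, E3_add, E3_mul, E3_mul, E3_right h (fun z y => (Vv f z y) ^ 2),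
    E3_left h (fun z x => (Vv f z x) ^ 2)] at h1
  unfold be
  linarith

open Classical in
theorem dbl (h : IsCh μ Q) (f : S → Fin n → ℝ) {g : ℝ} (hg : 0 < g) (hg8 : g ≤ 1 / 8) {P : ℕ}
    (hP : 1 ≤ P) {lam : ℝ} (hlam : 0 < lam) :
    al μ (Q * Q) f ≤ 4 * al μ Q f ∧
    Ph μ (Q * Q) f g P ≤ 4 * Ph μ Q f (4 * g) P - al μ (Q * Q) f / 4 + al μ Q f / 2
      + 1 / (4 * P) * (al μ (Q * Q) f + (lam * al μ (Q * Q) f + be μ (Q * Q) f / lam) / 2)
      + (18 * P + 6 * P / g) * (4 * al μ Q f - al μ (Q * Q) f) := by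
  have hPr : (1 : ℝ) ≤ (P : ℝ) := by exact_mod_cast hP
  set c := E3 μ Q (fun z x y => Nn f z y * Nn f z x) with hc
  set cs := E3 μ Q (fun z x y => Nn f z y * Nn f z x *
    (if (ss f (4 * g) z y ↔ ss f (4 * g) z x) then 1 else 0)) with hcs
  set mv := E1 μ (Q * Q) (fun x y => Nn f x y * Vv f x y) with hmv
  have ea2 : E3 μ Q (fun z _ y => (Nn f z y) ^ 2) = al μ Q f :=
    E3_right h (fun z y => (Nn f z y) ^ 2)
  have eb2 : E3 μ Q (fun z x _ => (Nn f z x) ^ 2) = al μ Q f :=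
    E3_left h (fun z x => (Nn f z x) ^ 2)
  have em2 : E3 μ Q (fun _ x y => (Nn f x y) ^ 2) = al μ (Q * Q) f :=
    E3_mid h (fun x y => (Nn f x y) ^ 2)
  have emv : E3 μ Q (fun _ x y => Nn f x y * Vv f x y) = mv :=
    E3_mid h (fun x y => Nn f x y * Vv f x y)
  have eA1 : E3 μ Q (fun z _ y => (Nn f z y) ^ 2 * ((min (pp f (4 * g) z y) P : ℕ) : ℝ))
      = Ph μ Q f (4 * g) P :=
    E3_right h (fun z y => (Nn f z y) ^ 2 * ((min (pp f (4 * g) z y) P : ℕ) : ℝ))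
  have eA2 : E3 μ Q (fun z x _ => (Nn f z x) ^ 2 * ((min (pp f (4 * g) z x) P : ℕ) : ℝ))
      = Ph μ Q f (4 * g) P :=
    E3_left h (fun z x => (Nn f z x) ^ 2 * ((min (pp f (4 * g) z x) P : ℕ) : ℝ))
  have eq2 : E3 μ Q (fun _ x y => (Nn f x y) ^ 2 * ((min (pp f g x y) P : ℕ) : ℝ))
      = Ph μ (Q * Q) f g P :=
    E3_mid h (fun x y => (Nn f x y) ^ 2 * ((min (pp f g x y) P : ℕ) : ℝ))
  -- Gamma is nonnegative
  have hG : al μ (Q * Q) f ≤ 2 * al μ Q f + 2 * c := by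
    have h1 : E3 μ Q (fun _ x y => (Nn f x y) ^ 2) ≤
        E3 μ Q (fun z x y => (Nn f z y) ^ 2 + ((Nn f z x) ^ 2 + 2 * (Nn f z y * Nn f z x))) := by
      refine E3_mono h fun z x y => ?_
      have h1 := Nn_tri f z x y
      have h2 := Nn_nonneg f x y
      nlinarith
    rw [em2, E3_add, E3_add, E3_mul, ea2, eb2] at h1
    linarith
  -- Delta is nonnegative
  have hD : c ≤ al μ Q f := by
    have h1 : E3 μ Q (fun z x y => 2 * (Nn f z y * Nn f z x)) ≤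
        E3 μ Q (fun z x y => (Nn f z y) ^ 2 + (Nn f z x) ^ 2) := by
      refine E3_mono h fun z x y => ?_
      nlinarith [sq_nonneg (Nn f z y - Nn f z x)]
    rw [E3_mul, E3_add, ea2, eb2] at h1
    linarith
  have hiid : c / 2 ≤ cs := iid_step h (fun z y => Nn f z y) (fun z y => ss f (4 * g) z y)
  have hmvle : mv ≤ (lam * al μ (Q * Q) f + be μ (Q * Q) f / lam) / 2 := by
    have h1 : mv ≤ E1 μ (Q * Q) (fun x y => lam / 2 * (Nn f x y) ^ 2
        + 1 / (2 * lam) * (Vv f x y) ^ 2) := by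
      refine E1_mono h.sq fun x y => ?_
      have e : lam / 2 * (Nn f x y) ^ 2 + 1 / (2 * lam) * (Vv f x y) ^ 2
          = (lam ^ 2 * (Nn f x y) ^ 2 + (Vv f x y) ^ 2) / (2 * lam) := by
        field_simp
      rw [e, le_div_iff₀ (by positivity)]
      nlinarith [sq_nonneg (lam * Nn f x y - Vv f x y)]
    rw [E1_add, E1_mul, E1_mul] at h1
    have e2 : (lam * al μ (Q * Q) f + be μ (Q * Q) f / lam) / 2
        = lam / 2 * al μ (Q * Q) f + 1 / (2 * lam) * be μ (Q * Q) f := by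
      field_simp
    rw [e2]
    exact h1
  -- the summed pointwise inequality
  have key : Ph μ (Q * Q) f g P + cs ≤
      2 * Ph μ Q f (4 * g) P + (2 * Ph μ Q f (4 * g) P + (1 / (4 * P) * al μ (Q * Q) f
        + (1 / (4 * P) * mv + ((18 * P + 6 * P / g) * al μ Q f
        + ((18 * P + 6 * P / g) * al μ Q f + ((2 * (6 * P / g) - 2 * (18 * P)) * c
        + (-(6 * P / g)) * al μ (Q * Q) f)))))) := by
    have h1 : E3 μ Q (fun z x y => (Nn f x y) ^ 2 * ((min (pp f g x y) P : ℕ) : ℝ)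
        + Nn f z y * Nn f z x * (if (ss f (4 * g) z y ↔ ss f (4 * g) z x) then 1 else 0)) ≤
        E3 μ Q (fun z x y => 2 * ((Nn f z y) ^ 2 * ((min (pp f (4 * g) z y) P : ℕ) : ℝ))
          + (2 * ((Nn f z x) ^ 2 * ((min (pp f (4 * g) z x) P : ℕ) : ℝ))
          + (1 / (4 * P) * (Nn f x y) ^ 2 + (1 / (4 * P) * (Nn f x y * Vv f x y)
          + ((18 * P + 6 * P / g) * (Nn f z y) ^ 2 + ((18 * P + 6 * P / g) * (Nn f z x) ^ 2
          + ((2 * (6 * P / g) - 2 * (18 * P)) * (Nn f z y * Nn f z x)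
          + (-(6 * P / g)) * (Nn f x y) ^ 2))))))) := by
      refine E3_mono h fun z x y => ?_
      refine le_trans (pw_inst f hg hg8 hP z x y) (le_of_eq ?_)
      ring
    rw [E3_add, E3_add, E3_add, E3_add, E3_add, E3_add, E3_add, E3_add, E3_mul, E3_mul, E3_mul,
      E3_mul, E3_mul, E3_mul, E3_mul, E3_mul, eq2, eA1, eA2, em2, emv, ea2, eb2] at h1
    exact h1
  have hk2 : (0 : ℝ) ≤ 18 * P := by positivity
  have hk3 : (0 : ℝ) ≤ 6 * P / g := by positivity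
  have hk1 : (0 : ℝ) ≤ 1 / (4 * P) := by positivity
  have m1 := mul_le_mul_of_nonneg_left
    (show 2 * al μ Q f - 2 * c ≤ 4 * al μ Q f - al μ (Q * Q) f by linarith) hk2
  have m2 := mul_le_mul_of_nonneg_left
    (show 2 * al μ Q f + 2 * c - al μ (Q * Q) f ≤ 4 * al μ Q f - al μ (Q * Q) f by linarith) hk3
  have m3 := mul_le_mul_of_nonneg_left hmvle hk1
  refine ⟨by linarith, ?_⟩
  linarith

end Vale.Agent.P125.H36
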